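import Vale.Agent.P223.R2.H84.SpecSub

/-! P223, modifications, row E1 (helper290): the component `range p` of the covering `W → Y`. -/

namespace Vale.Agent.P223.R2.H290

open Topology Vale.Agent.P223.R2.H84

/-- ROW E1. -/
theorem rowE1 : SpecComp := by
  intro Y V W Δ Γ _ _ _ _ _ _ _ _ _ _ _ _ a π' ρ p _ _ ha hasurj hafib hΓc hΓf hπ _ hπfib
    hpa hpρ
  have hpl : IsLocalHomeomorph p := by
    refine IsLocalHomeomorph.of_comp (g := π') ?_ hπ.isLocalHomeomorph p.continuous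
    have : (π' ∘ p : V → Y) = a := funext hpa
    rw [this]
    exact ha.isLocalHomeomorph
  have hopen : IsOpen (Set.range p) := hpl.isOpenMap.isOpen_range
  -- a translate which meets the range comes from the image of `ρ`
  have hmeet : ∀ (γ : Γ) (v u : V), γ • p v = p u → γ ∈ ρ.range := by
    intro γ v u h
    have h1 : a v = a u := by
      rw [← hpa v, ← hpa u, ← h]
      exact (hπfib _ _).2 ⟨γ, rfl⟩
    obtain ⟨g, hg⟩ := (hafib v u).1 h1
    have h2 : ρ g • p v = γ • p v := by rw [h, ← hpρ, hg]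
    have h3 : (γ⁻¹ * ρ g) • p v = p v := by rw [mul_smul, h2, inv_smul_smul]
    have h4 := hΓf _ _ h3
    exact ⟨g, (inv_mul_eq_one.1 h4).symm⟩
  have key : ∀ (γ : ρ.range) (w : Set.range p), (γ : Γ) • (w : W) ∈ Set.range p := by
    rintro ⟨_, g, rfl⟩ ⟨_, v, rfl⟩
    exact ⟨g • v, hpρ g v⟩
  have hclosed : IsClosed (Set.range p) := by
    rw [← isOpen_compl_iff, isOpen_iff_mem_nhds]
    intro w hw
    obtain ⟨v, hv⟩ := hasurj (π' w)
    obtain ⟨γ, hγ⟩ := (hπfib w (p v)).1 (by rw [hpa, hv])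
    -- `γ • w = p v`
    have hγ' : γ ∉ ρ.range := by
      rintro ⟨g, rfl⟩
      refine hw ⟨g⁻¹ • v, ?_⟩
      rw [hpρ, ← hγ, map_inv, inv_smul_smul]
    have hU : IsOpen ((fun x : W => γ • x) ⁻¹' Set.range p) := hopen.preimage (hΓc γ)
    refine Filter.mem_of_superset (hU.mem_nhds ⟨v, hγ.symm⟩) ?_
    rintro x ⟨u, hu⟩ ⟨u', hu'⟩
    refine hγ' (hmeet γ u' u ?_)
    rw [hu', hu]
  let act : MulAction ρ.range (Set.range p) :=
    { smul := fun γ w => ⟨(γ : Γ) • (w : W), key γ w⟩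
      one_smul := fun w => Subtype.ext (one_smul Γ (w : W))
      mul_smul := fun γ δ w => Subtype.ext (mul_smul (γ : Γ) (δ : Γ) (w : W)) }
  let ι : C(Set.range p, W) := ⟨Subtype.val, continuous_subtype_val⟩
  let p0 : C(V, Set.range p) := ⟨Set.rangeFactorization p, p.continuous.rangeFactorization⟩
  have hs : ∀ (γ : ρ.range) (w : Set.range p), ι (γ • w) = (γ : Γ) • ι w := fun _ _ => rfl
  have hc : ∀ γ : ρ.range, Continuous fun w : Set.range p => γ • w := fun γ =>
    ((hΓc γ).comp continuous_subtype_val).subtype_mk _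
  have hfib : ∀ x y : Set.range p, π'.comp ι x = π'.comp ι y ↔ ∃ γ : ρ.range, γ • x = y := by
    rintro ⟨_, v, rfl⟩ ⟨_, u, rfl⟩
    constructor
    · intro h
      have h1 : π' (p v) = π' (p u) := h
      obtain ⟨γ, hγ⟩ := (hπfib _ _).1 h1
      exact ⟨⟨γ, hmeet γ v u hγ⟩, Subtype.ext hγ⟩
    · rintro ⟨γ, hγ⟩
      have h1 : (γ : Γ) • p v = p u := congrArg Subtype.val hγ
      exact (hπfib _ _).2 ⟨γ, h1⟩
  have hsurj : Function.Surjective (π'.comp ι) := by
    intro y
    obtain ⟨v, rfl⟩ := hasurj y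
    exact ⟨⟨p v, v, rfl⟩, hpa v⟩
  have hop : IsOpenMap (π'.comp ι) :=
    hπ.isOpenMap.comp hopen.isOpenMap_subtype_val
  have hq : IsQuotientCoveringMap (π'.comp ι) ρ.range :=
    { toIsQuotientMap := hop.isQuotientMap (π'.comp ι).continuous hsurj
      continuous_const_smul := hc
      apply_eq_iff_mem_orbit := by
        intro x y
        rw [eq_comm, hfib]
        rfl
      disjoint := by
        intro w
        obtain ⟨U, hU, hwU, hinj⟩ := hπ.isLocalHomeomorph.isLocallyInjective (ι w)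
        refine ⟨ι ⁻¹' U, (hU.preimage ι.continuous).mem_nhds hwU, ?_⟩
        rintro γ ⟨_, ⟨x, hx, rfl⟩, hy⟩
        have h1 : (γ : Γ) • ι x ∈ U := hy
        have h2 : π' ((γ : Γ) • ι x) = π' (ι x) := ((hπfib _ _).2 ⟨γ, rfl⟩).symm
        exact Subtype.ext (hΓf _ _ (hinj h1 hx h2)) }
  refine ⟨Set.range p, inferInstance, act, ι, p0, inferInstance,
    hclosed.isClosedEmbedding_subtypeVal, hs, hc, ?_, hq.isCoveringMap, hsurj, hfib,
    fun _ => rfl, Set.rangeFactorization_surjective⟩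
  intro γ w h
  have h1 : (γ : Γ) • (w : W) = w := congrArg Subtype.val h
  exact Subtype.ext (hΓf _ _ h1)

end Vale.Agent.P223.R2.H290
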