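import Mathlib

/-! P223, row R1: the prism identity for cochains (helper290). -/

namespace Vale.Agent.P223.R2.H290

open Finset

theorem double {A B : ℕ → ℕ → ℝ} {M : ℕ → ℝ} (n : ℕ)
    (h1 : ∀ i j, j ≤ n → i < j → A i j = B i (j - 1)) (h2 : ∀ j, j ≤ n → A j j = M j)
    (h3 : ∀ j, j ≤ n → A (j + 1) j = M (j + 1))
    (h4 : ∀ i j, j + 1 ≤ i → i ≤ n → A (i + 1) j = B i j) :
    ∑ j ∈ range (n + 1), (-1 : ℝ) ^ j * ∑ i ∈ range (n + 2), (-1 : ℝ) ^ i * A i j =
      M 0 - M (n + 1) - ∑ i ∈ range (n + 1), (-1 : ℝ) ^ i * ∑ j ∈ range n, (-1 : ℝ) ^ j * B i j := by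
  have row : ∀ j ∈ range (n + 1), (-1 : ℝ) ^ j * ∑ i ∈ range (n + 2), (-1 : ℝ) ^ i * A i j =
      (∑ i ∈ range j, (-1 : ℝ) ^ (i + j) * B i (j - 1)) + (M j - M (j + 1)) -
        ∑ i ∈ Ico (j + 1) (n + 1), (-1 : ℝ) ^ (i + j) * B i j := by
    intro j hj
    have hj' : j ≤ n := by rw [mem_range] at hj; omega
    have e1 : ∑ i ∈ range (n + 2), (-1 : ℝ) ^ i * A i j =
        (∑ i ∈ range j, (-1 : ℝ) ^ i * B i (j - 1)) + ((-1) ^ j * M j + ((-1) ^ (j + 1) * M (j + 1) +
          ∑ i ∈ Ico (j + 1) (n + 1), (-1 : ℝ) ^ (i + 1) * B i j)) := by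
      rw [← Finset.sum_range_add_sum_Ico _ (show j ≤ n + 2 by omega),
        Finset.sum_eq_sum_Ico_succ_bot (show j < n + 2 by omega),
        Finset.sum_eq_sum_Ico_succ_bot (show j + 1 < n + 2 by omega), h2 j hj', h3 j hj']
      congr 1
      · refine Finset.sum_congr rfl fun i hi => ?_
        rw [h1 i j hj' (mem_range.1 hi)]
      · congr 2
        rw [← Finset.sum_Ico_add' (fun i => (-1 : ℝ) ^ i * A i j) (j + 1) (n + 1) 1]
        refine Finset.sum_congr rfl fun i hi => ?_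
        rw [mem_Ico] at hi
        rw [h4 i j hi.1 (by omega)]
    rw [e1, mul_add, mul_add, mul_add, Finset.mul_sum, Finset.mul_sum]
    have e2 : (-1 : ℝ) ^ j * ((-1) ^ j * M j) = M j := by
      rw [← mul_assoc, ← pow_add, ← two_mul, pow_mul]; simp
    have e3 : (-1 : ℝ) ^ j * ((-1) ^ (j + 1) * M (j + 1)) = - M (j + 1) := by
      rw [← mul_assoc, ← pow_add, ← add_assoc, ← two_mul, pow_succ, pow_mul]; simp
    rw [e2, e3]
    have e4 : ∑ i ∈ range j, (-1 : ℝ) ^ j * ((-1) ^ i * B i (j - 1)) =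
        ∑ i ∈ range j, (-1 : ℝ) ^ (i + j) * B i (j - 1) :=
      Finset.sum_congr rfl fun i _ => by rw [pow_add]; ring
    have e5 : ∑ i ∈ Ico (j + 1) (n + 1), (-1 : ℝ) ^ j * ((-1) ^ (i + 1) * B i j) =
        - ∑ i ∈ Ico (j + 1) (n + 1), (-1 : ℝ) ^ (i + j) * B i j := by
      rw [← Finset.sum_neg_distrib]
      exact Finset.sum_congr rfl fun i _ => by rw [pow_add, pow_succ]; ring
    rw [e4, e5]
    ring
  rw [Finset.sum_congr rfl row, Finset.sum_sub_distrib, Finset.sum_add_distrib,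
    Finset.sum_range_sub']
  have f1 : ∑ j ∈ range (n + 1), ∑ i ∈ range j, (-1 : ℝ) ^ (i + j) * B i (j - 1) =
      - ∑ j ∈ range n, ∑ i ∈ range (j + 1), (-1 : ℝ) ^ (i + j) * B i j := by
    rw [Finset.sum_range_succ', Finset.range_zero, Finset.sum_empty, add_zero,
      ← Finset.sum_neg_distrib]
    refine Finset.sum_congr rfl fun j _ => ?_
    rw [← Finset.sum_neg_distrib]
    refine Finset.sum_congr rfl fun i _ => ?_
    rw [Nat.add_sub_cancel, ← add_assoc, pow_succ]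
    ring
  have f2 : ∑ j ∈ range (n + 1), ∑ i ∈ Ico (j + 1) (n + 1), (-1 : ℝ) ^ (i + j) * B i j =
      ∑ j ∈ range n, ∑ i ∈ Ico (j + 1) (n + 1), (-1 : ℝ) ^ (i + j) * B i j := by
    rw [Finset.sum_range_succ, Finset.Ico_self, Finset.sum_empty, add_zero]
  have f3 : ∑ i ∈ range (n + 1), (-1 : ℝ) ^ i * ∑ j ∈ range n, (-1 : ℝ) ^ j * B i j =
      ∑ j ∈ range n, ∑ i ∈ range (n + 1), (-1 : ℝ) ^ (i + j) * B i j := by
    rw [Finset.sum_comm]
    refine Finset.sum_congr rfl fun i _ => ?_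
    rw [Finset.mul_sum]
    exact Finset.sum_congr rfl fun j _ => by rw [pow_add]; ring
  have f4 : ∀ j ∈ range n, ∑ i ∈ range (n + 1), (-1 : ℝ) ^ (i + j) * B i j =
      (∑ i ∈ range (j + 1), (-1 : ℝ) ^ (i + j) * B i j) +
        ∑ i ∈ Ico (j + 1) (n + 1), (-1 : ℝ) ^ (i + j) * B i j := by
    intro j hj
    rw [mem_range] at hj
    exact (Finset.sum_range_add_sum_Ico _ (by omega)).symm
  rw [f1, f2, f3, Finset.sum_congr rfl f4, Finset.sum_add_distrib]
  ring

/-- the prism simplices `(a_0, .., a_j, b_j, ..)` -/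
def spl {G : Type} {n : ℕ} (j : ℕ) (a b : Fin n → G) (h : j < n) : Fin (n + 1) → G := fun i =>
  if hi : (i : ℕ) ≤ j then a ⟨i, by omega⟩ else b ⟨i - 1, by omega⟩

theorem spl_val {G : Type} {n : ℕ} {a' b' : ℕ → G} {a b : Fin n → G} (ha : ∀ x : Fin n, a x = a' x)
    (hb : ∀ x : Fin n, b x = b' x) (j : ℕ) (h : j < n) (i : Fin (n + 1)) :
    spl j a b h i = if (i : ℕ) ≤ j then a' i else b' ((i : ℕ) - 1) := by
  unfold spl
  split_ifs with h1
  · exact ha _
  · exact hb _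

theorem succ_val {m : ℕ} (i : ℕ) (hi : i < m + 1) (k : Fin m) :
    (((⟨i, hi⟩ : Fin (m + 1)).succAbove k : Fin (m + 1)) : ℕ) =
      if (k : ℕ) < i then (k : ℕ) else (k : ℕ) + 1 := by
  unfold Fin.succAbove
  by_cases h : (k : ℕ) < i
  · rw [if_pos h, if_pos (by simpa [Fin.lt_def] using h)]; rfl
  · rw [if_neg h, if_neg (by simpa [Fin.lt_def] using h)]; rfl

/-- **Prism identity** -/
theorem prism {G : Type} {n : ℕ} (F : (Fin (n + 1) → G) → ℝ)
    (hF : ∀ g : Fin (n + 2) → G, ∑ i : Fin (n + 2), (-1 : ℝ) ^ (i : ℕ) * F (g ∘ i.succAbove) = 0)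
    (a b : Fin (n + 1) → G) :
    F b - F a = ∑ i : Fin (n + 1), (-1 : ℝ) ^ (i : ℕ) *
      ∑ j : Fin n, (-1 : ℝ) ^ (j : ℕ) * F (spl j (a ∘ i.succAbove) (b ∘ i.succAbove) j.2) := by
  classical
  obtain ⟨a', ha⟩ : ∃ a' : ℕ → G, ∀ x : Fin (n + 1), a x = a' x :=
    ⟨fun i => if h : i < n + 1 then a ⟨i, h⟩ else a 0, fun x => by simp only [x.2, dif_pos, Fin.eta]⟩
  obtain ⟨b', hb⟩ : ∃ b' : ℕ → G, ∀ x : Fin (n + 1), b x = b' x :=
    ⟨fun i => if h : i < n + 1 then b ⟨i, h⟩ else b 0, fun x => by simp only [x.2, dif_pos, Fin.eta]⟩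
  have hda : ∀ (i : ℕ) (hi : i < n + 1) (x : Fin n), (a ∘ (⟨i, hi⟩ : Fin (n + 1)).succAbove) x =
      (fun t : ℕ => a' (if t < i then t else t + 1)) x := fun i hi x => by
    simp only [Function.comp, ha, succ_val]
  have hdb : ∀ (i : ℕ) (hi : i < n + 1) (x : Fin n), (b ∘ (⟨i, hi⟩ : Fin (n + 1)).succAbove) x =
      (fun t : ℕ => b' (if t < i then t else t + 1)) x := fun i hi x => by
    simp only [Function.comp, hb, succ_val]
  set A : ℕ → ℕ → ℝ := fun i j => if hi : i < n + 2 then if hj : j < n + 1 then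
    F (spl j a b hj ∘ (⟨i, hi⟩ : Fin (n + 2)).succAbove) else 0 else 0 with hA
  set B : ℕ → ℕ → ℝ := fun i j => if hi : i < n + 1 then if hj : j < n then
    F (spl j (a ∘ (⟨i, hi⟩ : Fin (n + 1)).succAbove) (b ∘ (⟨i, hi⟩ : Fin (n + 1)).succAbove) hj)
    else 0 else 0 with hB
  set M : ℕ → ℝ := fun j => F (fun i => if (i : ℕ) < j then a i else b i) with hM
  have key := double (A := A) (B := B) (M := M) n ?_ ?_ ?_ ?_
  · have k1 : ∑ j ∈ range (n + 1), (-1 : ℝ) ^ j * ∑ i ∈ range (n + 2), (-1 : ℝ) ^ i * A i j = 0 := by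
      refine Finset.sum_eq_zero fun j hj => ?_
      rw [mem_range] at hj
      rw [← Fin.sum_univ_eq_sum_range (fun i => (-1 : ℝ) ^ i * A i j)]
      have := hF (spl j a b hj)
      have e : ∑ i : Fin (n + 2), (-1 : ℝ) ^ (i : ℕ) * A i j =
          ∑ i : Fin (n + 2), (-1 : ℝ) ^ (i : ℕ) * F (spl j a b hj ∘ i.succAbove) :=
        Finset.sum_congr rfl fun i _ => by simp only [hA, i.2, hj, dif_pos, Fin.eta]
      rw [e, this, mul_zero]
    rw [k1] at key
    have m0 : M 0 = F b := by simp [hM]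
    have m1 : M (n + 1) = F a := by
      simp only [hM]
      congr 1
      funext i
      rw [if_pos i.2]
    rw [m0, m1] at key
    have k2 : ∑ i ∈ range (n + 1), (-1 : ℝ) ^ i * ∑ j ∈ range n, (-1 : ℝ) ^ j * B i j =
        ∑ i : Fin (n + 1), (-1 : ℝ) ^ (i : ℕ) *
      ∑ j : Fin n, (-1 : ℝ) ^ (j : ℕ) * F (spl j (a ∘ i.succAbove) (b ∘ i.succAbove) j.2) := by
      rw [← Fin.sum_univ_eq_sum_range (fun i => (-1 : ℝ) ^ i * ∑ j ∈ range n, (-1 : ℝ) ^ j * B i j)]
      refine Finset.sum_congr rfl fun i _ => ?_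
      rw [← Fin.sum_univ_eq_sum_range (fun j => (-1 : ℝ) ^ j * B i j)]
      congr 1
      exact Finset.sum_congr rfl fun j _ => by simp only [hB, i.2, j.2, dif_pos, Fin.eta]
    rw [k2] at key
    linarith
  · intro i j hj hij
    simp only [hA, hB, dif_pos (show i < n + 2 by omega), dif_pos (show j < n + 1 by omega),
      dif_pos (show i < n + 1 by omega), dif_pos (show j - 1 < n by omega)]
    congr 1
    funext k
    rw [spl_val (a' := fun t : ℕ => a' (if t < i then t else t + 1))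
      (b' := fun t : ℕ => b' (if t < i then t else t + 1)) (hda i (by omega)) (hdb i (by omega)),
      Function.comp_apply, spl_val ha hb, succ_val]
    have hk := k.2
    by_cases c1 : (k : ℕ) < i
    · simp only [if_pos c1, if_pos (show (k : ℕ) ≤ j by omega), if_pos (show (k : ℕ) ≤ j - 1 by omega)]
    · by_cases c2 : (k : ℕ) + 1 ≤ j
      · simp only [if_neg c1, if_pos c2, if_pos (show (k : ℕ) ≤ j - 1 by omega)]
      · simp only [if_neg c1, if_neg c2, if_neg (show ¬ (k : ℕ) ≤ j - 1 by omega),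
          if_neg (show ¬ (k : ℕ) - 1 < i by omega)]
        congr 1
        omega
  · intro j hj
    simp only [hA, hM, dif_pos (show j < n + 2 by omega), dif_pos (show j < n + 1 by omega)]
    congr 1
    funext k
    rw [Function.comp_apply, spl_val ha hb, succ_val, ha, hb]
    by_cases c1 : (k : ℕ) < j
    · simp only [if_pos c1, if_pos c1.le]
    · simp only [if_neg c1, if_neg (show ¬ (k : ℕ) + 1 ≤ j by omega), Nat.add_sub_cancel]
  · intro j hj
    simp only [hA, hM, dif_pos (show j + 1 < n + 2 by omega), dif_pos (show j < n + 1 by omega)]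
    congr 1
    funext k
    rw [Function.comp_apply, spl_val ha hb, succ_val, ha, hb]
    by_cases c1 : (k : ℕ) < j + 1
    · simp only [if_pos c1, if_pos (show (k : ℕ) ≤ j by omega)]
    · simp only [if_neg c1, if_neg (show ¬ (k : ℕ) + 1 ≤ j by omega), Nat.add_sub_cancel]
  · intro i j hj hi
    simp only [hA, hB, dif_pos (show i + 1 < n + 2 by omega), dif_pos (show j < n + 1 by omega),
      dif_pos (show i < n + 1 by omega), dif_pos (show j < n by omega)]
    congr 1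
    funext k
    rw [spl_val (a' := fun t : ℕ => a' (if t < i then t else t + 1))
      (b' := fun t : ℕ => b' (if t < i then t else t + 1)) (hda i (by omega)) (hdb i (by omega)),
      Function.comp_apply, spl_val ha hb, succ_val]
    have hk := k.2
    by_cases c1 : (k : ℕ) < i + 1
    · by_cases c2 : (k : ℕ) ≤ j
      · simp only [if_pos c1, if_pos c2, if_pos (show (k : ℕ) < i by omega)]
      · simp only [if_pos c1, if_neg c2, if_pos (show (k : ℕ) - 1 < i by omega)]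
    · simp only [if_neg c1, if_neg (show ¬ (k : ℕ) + 1 ≤ j by omega),
        if_neg (show ¬ (k : ℕ) ≤ j by omega), if_neg (show ¬ (k : ℕ) - 1 < i by omega)]
      congr 1
      omega

end Vale.Agent.P223.R2.H290
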